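import Mathlib
import Crest.Prelude.Def_AsymptoticConvexity
import Crest.Prelude.Def_DaugavetL1
import Crest.Agent.Helper4.Common

/-!
Helper3: parts (a) and (c) of statement S0167 — the lower bounds for the averaged midpoint and
one-sided asymptotic moduli of a closed subspace of `L¹` of a probability space whose unit ball
is totally bounded for convergence in measure.
-/

set_option autoImplicit false

namespace Crest.Agent.Helper3

open MeasureTheory Crest.AnalysisR Crest.AnalysisR.L1Subspace Crest.Agent.Helper4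

section General

variable {V : Type*} [NormedAddCommGroup V] [NormedSpace ℝ V]

/-- One-sided lower bound `max 0 (t - 2)` in any real normed space: on the kernel of a norming
functional of `x`. -/
theorem oneSided_ge_general (t : ℝ) (ht : 0 < t) (x : V) (hx : ‖x‖ = 1) :
    ∃ F : Set V, Cof F ∧ ∀ y ∈ F, ‖y‖ = 1 → max 0 (t - 2) ≤ ‖x + t • y‖ - 1 := by
  obtain ⟨φ, hφ1, hφx⟩ := exists_dual_vector ℝ x (by rw [hx]; norm_num)
  refine ⟨{y | φ y = 0}, cof_ker φ, fun y hy hy1 => ?_⟩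
  have hy0 : φ y = 0 := hy
  have h1 : (1 : ℝ) ≤ ‖x + t • y‖ := by
    have h2 : φ (x + t • y) = 1 := by
      rw [map_add, map_smul, hy0, hφx, hx]
      simp
    calc (1 : ℝ) = φ (x + t • y) := h2.symm
      _ ≤ ‖φ (x + t • y)‖ := Real.le_norm_self _
      _ ≤ ‖φ‖ * ‖x + t • y‖ := φ.le_opNorm _
      _ = ‖x + t • y‖ := by rw [hφ1, one_mul]
  have h3 : t - 1 ≤ ‖x + t • y‖ := by
    have h4 : ‖t • y‖ ≤ ‖x + t • y‖ + ‖x‖ := by
      calc ‖t • y‖ = ‖(x + t • y) - x‖ := by congr 1; abel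
        _ ≤ ‖x + t • y‖ + ‖x‖ := norm_sub_le _ _
    rw [norm_smul, Real.norm_eq_abs, abs_of_pos ht, hy1, hx] at h4
    linarith
  rw [max_le_iff]
  constructor <;> linarith

end General

section Banach

/-- Part (c): the one-sided modulus is at least `max 0 (t - 2)` in every `RealBanach`. -/
theorem oneSidedGE_general (B : RealBanach) (t : ℝ) (ht : 0 < t) :
    B.OneSidedModulusGE B.norm t (max 0 (t - 2)) := by
  let _ := B.normed
  let _ := B.space
  intro x hx η hη
  obtain ⟨F, hF, h⟩ := oneSided_ge_general t ht x hx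
  refine ⟨F, hF, fun y hy hy1 => ?_⟩
  have h5 := h y hy hy1
  have h6 : max 0 (t - 2) - η ≤ ‖x + t • y‖ - 1 := by linarith
  exact h6

end Banach

section L1

variable {Ω : Type} [MeasurableSpace Ω] (P : Measure Ω)

/-- The sign of (the chosen representative of) `g`, as a measurable `±1`-valued function. -/
noncomputable def sgn (g : Lp ℝ 1 P) (ω : Ω) : ℝ := if 0 ≤ g ω then 1 else -1

theorem measurable_sgn (g : Lp ℝ 1 P) : Measurable (sgn P g) :=
  Measurable.ite (measurableSet_le measurable_const (Lp.stronglyMeasurable g).measurable)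
    measurable_const measurable_const

theorem abs_sgn_le (g : Lp ℝ 1 P) (ω : Ω) : |sgn P g ω| ≤ 1 := by
  unfold sgn
  split_ifs <;> simp

theorem integrable_sgn_mul (g y : Lp ℝ 1 P) : Integrable (fun ω => sgn P g ω * y ω) P :=
  (L1.integrable_coeFn y).bdd_mul (c := 1) (measurable_sgn P g).aestronglyMeasurable
    (ae_of_all _ fun ω => by simpa [Real.norm_eq_abs] using abs_sgn_le P g ω)

/-- The functional `y ↦ ∫ sign(g) y` on `L¹`. -/
noncomputable def pairing (g : Lp ℝ 1 P) : Lp ℝ 1 P →L[ℝ] ℝ :=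
  LinearMap.mkContinuous
    { toFun := fun y => ∫ ω, sgn P g ω * y ω ∂P
      map_add' := by
        intro y z
        rw [← integral_add (integrable_sgn_mul P g y) (integrable_sgn_mul P g z)]
        refine integral_congr_ae ?_
        filter_upwards [Lp.coeFn_add y z] with ω h
        rw [h, Pi.add_apply, mul_add]
      map_smul' := by
        intro c y
        simp only [RingHom.id_apply, smul_eq_mul]
        rw [← integral_const_mul]
        refine integral_congr_ae ?_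
        filter_upwards [Lp.coeFn_smul c y] with ω h
        rw [h, Pi.smul_apply, smul_eq_mul]
        ring }
    1
    (by
      intro y
      rw [one_mul, L1.norm_eq_integral_norm]
      calc ‖∫ ω, sgn P g ω * y ω ∂P‖ ≤ ∫ ω, ‖sgn P g ω * y ω‖ ∂P :=
            norm_integral_le_integral_norm _
        _ ≤ ∫ ω, ‖y ω‖ ∂P := by
          refine integral_mono (integrable_sgn_mul P g y).norm (L1.integrable_coeFn y).norm ?_
          intro ω
          simp only [norm_mul, Real.norm_eq_abs]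
          calc |sgn P g ω| * |y ω| ≤ 1 * |y ω| :=
                mul_le_mul_of_nonneg_right (abs_sgn_le P g ω) (abs_nonneg _)
            _ = |y ω| := one_mul _)

theorem pairing_apply (g y : Lp ℝ 1 P) : pairing P g y = ∫ ω, sgn P g ω * y ω ∂P := rfl

theorem measurableSet_far (y g : Lp ℝ 1 P) (ρ : ℝ) :
    MeasurableSet {ω | ρ < |y ω - g ω|} :=
  measurableSet_lt measurable_const
    ((Lp.stronglyMeasurable y).measurable.sub (Lp.stronglyMeasurable g).measurable).abs

/-- If `∫ sign(g) y = 0` then at least half of the mass of `y` (up to `ρ`) sits where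
`y` is `ρ`-far from `g`. -/
theorem lemmaA [IsProbabilityMeasure P] (y g : Lp ℝ 1 P) (ρ : ℝ) (hρ : 0 ≤ ρ)
    (h0 : ∫ ω, sgn P g ω * y ω ∂P = 0) :
    ‖y‖ / 2 - ρ ≤ ∫ ω in {ω | ρ < |y ω - g ω|}, |y ω| ∂P := by
  set S : Set Ω := {ω | ρ < |y ω - g ω|} with hS
  have hSm : MeasurableSet S := measurableSet_far P y g ρ
  have hyi : Integrable (fun ω => |y ω|) P := (L1.integrable_coeFn y).abs
  have hpt : ∀ ω, |y ω| - 2 * ρ - 2 * S.indicator (fun ω => |y ω|) ω ≤ sgn P g ω * y ω := by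
    intro ω
    by_cases hω : ω ∈ S
    · rw [Set.indicator_of_mem hω]
      have h1 : -|y ω| ≤ sgn P g ω * y ω := by
        unfold sgn
        split_ifs
        · rw [one_mul]; exact neg_abs_le _
        · rw [neg_one_mul]; exact neg_le_neg (le_abs_self _)
      linarith [abs_nonneg (y ω)]
    · rw [Set.indicator_of_notMem hω]
      have hle : |y ω - g ω| ≤ ρ := not_lt.mp hω
      rw [abs_le] at hle
      unfold sgn
      split_ifs with hg
      · rw [one_mul]
        rcases abs_cases (y ω) with ⟨h1, _⟩ | ⟨h1, _⟩ <;> rw [h1] <;> linarith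
      · rw [neg_one_mul]
        rw [not_le] at hg
        rcases abs_cases (y ω) with ⟨h1, _⟩ | ⟨h1, _⟩ <;> rw [h1] <;> linarith
  have hi1 : Integrable (fun ω => |y ω| - 2 * ρ) P := hyi.sub (integrable_const _)
  have hi2 : Integrable (fun ω => 2 * S.indicator (fun ω => |y ω|) ω) P :=
    (hyi.indicator hSm).const_mul 2
  have hint : Integrable (fun ω => |y ω| - 2 * ρ - 2 * S.indicator (fun ω => |y ω|) ω) P :=
    hi1.sub hi2
  have hmono := integral_mono hint (integrable_sgn_mul P g y) hpt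
  rw [h0] at hmono
  have h1 : ∫ ω, (|y ω| - 2 * ρ - 2 * S.indicator (fun ω => |y ω|) ω) ∂P =
      ‖y‖ - 2 * ρ - 2 * ∫ ω in S, |y ω| ∂P := by
    have e3 : ∫ ω, 2 * S.indicator (fun ω => |y ω|) ω ∂P = 2 * ∫ ω in S, |y ω| ∂P := by
      rw [integral_const_mul, integral_indicator hSm]
    rw [integral_sub hi1 hi2, integral_sub hyi (integrable_const _), e3,
      L1.norm_eq_integral_norm]
    simp [Real.norm_eq_abs]
  rw [h1] at hmono
  linarith

/-- `‖x + t y‖ + ‖x - t y‖` dominates twice the mass of `x` off `S` plus `2 t` times the mass of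
`y` on `S`. -/
theorem lemmaB (x y : Lp ℝ 1 P) (t : ℝ) (ht : 0 ≤ t) (S : Set Ω) (hS : MeasurableSet S) :
    2 * (‖x‖ - ∫ ω in S, |x ω| ∂P) + 2 * t * ∫ ω in S, |y ω| ∂P ≤
      ‖x + t • y‖ + ‖x - t • y‖ := by
  have hxi : Integrable (fun ω => |x ω|) P := (L1.integrable_coeFn x).abs
  have hyi : Integrable (fun ω => |y ω|) P := (L1.integrable_coeFn y).abs
  have e1 : ‖x + t • y‖ = ∫ ω, |x ω + t * y ω| ∂P := by
    rw [L1.norm_eq_integral_norm]
    refine integral_congr_ae ?_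
    filter_upwards [Lp.coeFn_add x (t • y), Lp.coeFn_smul t y] with ω h1 h2
    rw [h1, Pi.add_apply, h2, Pi.smul_apply, smul_eq_mul, Real.norm_eq_abs]
  have e2 : ‖x - t • y‖ = ∫ ω, |x ω - t * y ω| ∂P := by
    rw [L1.norm_eq_integral_norm]
    refine integral_congr_ae ?_
    filter_upwards [Lp.coeFn_sub x (t • y), Lp.coeFn_smul t y] with ω h1 h2
    rw [h1, Pi.sub_apply, h2, Pi.smul_apply, smul_eq_mul, Real.norm_eq_abs]
  have i1 : Integrable (fun ω => |x ω + t * y ω|) P :=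
    ((L1.integrable_coeFn x).add ((L1.integrable_coeFn y).const_mul t)).abs
  have i2 : Integrable (fun ω => |x ω - t * y ω|) P :=
    ((L1.integrable_coeFn x).sub ((L1.integrable_coeFn y).const_mul t)).abs
  have i12 : Integrable (fun ω => |x ω + t * y ω| + |x ω - t * y ω|) P := i1.add i2
  rw [e1, e2, ← integral_add i1 i2, ← integral_add_compl hS i12]
  have hA : 2 * t * ∫ ω in S, |y ω| ∂P ≤
      ∫ ω in S, (|x ω + t * y ω| + |x ω - t * y ω|) ∂P := by
    rw [← integral_const_mul]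
    refine setIntegral_mono_on (hyi.const_mul _).integrableOn i12.integrableOn hS
      fun ω _ => ?_
    have h := norm_sub_le (x ω + t * y ω) (x ω - t * y ω)
    have e : x ω + t * y ω - (x ω - t * y ω) = 2 * (t * y ω) := by ring
    rw [e] at h
    simp only [Real.norm_eq_abs] at h
    rw [abs_mul, abs_mul, abs_of_nonneg ht, abs_two] at h
    linarith
  have hB : 2 * (‖x‖ - ∫ ω in S, |x ω| ∂P) ≤
      ∫ ω in Sᶜ, (|x ω + t * y ω| + |x ω - t * y ω|) ∂P := by
    have hx' : ‖x‖ - ∫ ω in S, |x ω| ∂P = ∫ ω in Sᶜ, |x ω| ∂P := by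
      rw [L1.norm_eq_integral_norm]
      simp only [Real.norm_eq_abs]
      rw [← integral_add_compl hS hxi]
      ring
    rw [hx', ← integral_const_mul]
    refine setIntegral_mono_on (hxi.const_mul _).integrableOn i12.integrableOn hS.compl
      fun ω _ => ?_
    have h := norm_add_le (x ω + t * y ω) (x ω - t * y ω)
    have e : x ω + t * y ω + (x ω - t * y ω) = 2 * x ω := by ring
    rw [e] at h
    simp only [Real.norm_eq_abs] at h
    rw [abs_mul, abs_two] at h
    exact h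
  linarith

/-- Absolute continuity of the integral of a single `L¹` function. -/
theorem lemmaC (x : Lp ℝ 1 P) (ε : ℝ) (hε : 0 < ε) :
    ∃ δ : ℝ, 0 < δ ∧ ∀ S : Set Ω, P S < ENNReal.ofReal δ → ∫ ω in S, |x ω| ∂P ≤ ε := by
  have hfin : ∫⁻ ω, ‖x ω‖ₑ ∂P ≠ ⊤ := (L1.integrable_coeFn x).2.ne
  obtain ⟨δ, hδ, h⟩ := exists_pos_setLIntegral_lt_of_measure_lt hfin
    (ε := ENNReal.ofReal ε) (by simpa using hε)
  have hmin_pos : 0 < min δ 1 := lt_min hδ one_pos
  have hmin_top : min δ 1 ≠ ⊤ := ne_top_of_le_ne_top ENNReal.one_ne_top (min_le_right _ _)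
  refine ⟨(min δ 1).toReal, ENNReal.toReal_pos hmin_pos.ne' hmin_top, fun S hS => ?_⟩
  rw [ENNReal.ofReal_toReal hmin_top] at hS
  have h2 := h S (lt_of_lt_of_le hS (min_le_left _ _))
  have h3 : ∫ ω in S, |x ω| ∂P = (∫⁻ ω in S, ‖x ω‖ₑ ∂P).toReal := by
    have := integral_norm_eq_lintegral_enorm (μ := P.restrict S)
      (L1.integrable_coeFn x).aestronglyMeasurable.restrict
    simpa [Real.norm_eq_abs] using this
  rw [h3]
  exact ENNReal.toReal_le_of_le_ofReal hε.le h2.le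

variable (E : Submodule ℝ (Lp ℝ 1 P)) (hcl : IsClosed (E : Set (Lp ℝ 1 P)))

/-- Part (a): the averaged midpoint modulus is at least `max (t/2) (t-1)`. -/
theorem midpointGE [IsProbabilityMeasure P] (htb : UnitBallTotallyBoundedInMeasure P E)
    (t : ℝ) (ht : 0 < t) :
    (toRealBanach P E hcl).MidpointModulusGE (toRealBanach P E hcl).norm t
      (max (t / 2) (t - 1)) := by
  show ∀ x : ↥E, ‖x‖ = 1 → ∀ η : ℝ, 0 < η → ∃ F : Set ↥E, Cof F ∧ ∀ y ∈ F, ‖y‖ = 1 →
    max (t / 2) (t - 1) - η ≤ (‖x + t • y‖ + ‖x - t • y‖) / 2 - 1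
  intro x hx η hη
  have hx1 : ‖(x : Lp ℝ 1 P)‖ = 1 := hx
  obtain ⟨δ, hδ, hδS⟩ := lemmaC P (x : Lp ℝ 1 P) (η / 2) (by positivity)
  set ρ : ℝ := min δ (η / (2 * t)) with hρ
  have hρpos : 0 < ρ := lt_min hδ (by positivity)
  obtain ⟨s, hs, hnet⟩ := htb ρ hρpos
  let φ : (↥s) → (↥E) →L[ℝ] ℝ := fun g => (pairing P (g : Lp ℝ 1 P)).comp E.subtypeL
  refine ⟨{y : ↥E | ∀ g : ↥s, φ g y = 0}, cof_ker_pi φ, ?_⟩
  intro y hy hy1
  have hy1' : ‖(y : Lp ℝ 1 P)‖ = 1 := hy1
  obtain ⟨g, hg, hdist⟩ := hnet (y : Lp ℝ 1 P) y.2 (le_of_eq hy1')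
  have hne : ({a : ℝ | 0 < a ∧
      P {z | a < |((y : Lp ℝ 1 P) : Ω → ℝ) z - (g : Ω → ℝ) z|} < ENNReal.ofReal a}).Nonempty :=
    ⟨2, by norm_num, lt_of_le_of_lt prob_le_one (by norm_num)⟩
  obtain ⟨a, ⟨ha0, haP⟩, haρ⟩ := exists_lt_of_csInf_lt hne hdist
  set S : Set Ω := {ω | ρ < |((y : Lp ℝ 1 P) : Ω → ℝ) ω - (g : Ω → ℝ) ω|} with hSdef
  have hSm : MeasurableSet S := measurableSet_far P (y : Lp ℝ 1 P) g ρ
  have hPS : P S < ENNReal.ofReal δ := by
    calc P S ≤ P {z | a < |((y : Lp ℝ 1 P) : Ω → ℝ) z - (g : Ω → ℝ) z|} :=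
          measure_mono (fun ω hω => lt_trans haρ hω)
      _ < ENNReal.ofReal a := haP
      _ ≤ ENNReal.ofReal δ := ENNReal.ofReal_le_ofReal (le_trans haρ.le (min_le_left _ _))
  have hxS := hδS S hPS
  have h0 : ∫ ω, sgn P g ω * ((y : Lp ℝ 1 P) : Ω → ℝ) ω ∂P = 0 := hy ⟨g, hg⟩
  have hA := lemmaA P (y : Lp ℝ 1 P) g ρ hρpos.le h0
  have hB := lemmaB P (x : Lp ℝ 1 P) (y : Lp ℝ 1 P) t ht.le S hSm
  have htρ : t * ρ ≤ η / 2 := by
    calc t * ρ ≤ t * (η / (2 * t)) := mul_le_mul_of_nonneg_left (min_le_right _ _) ht.le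
      _ = η / 2 := by field_simp
  have htriv : 2 * t ≤ ‖(x : Lp ℝ 1 P) + t • (y : Lp ℝ 1 P)‖ +
      ‖(x : Lp ℝ 1 P) - t • (y : Lp ℝ 1 P)‖ := by
    have h := norm_sub_le ((x : Lp ℝ 1 P) + t • (y : Lp ℝ 1 P))
      ((x : Lp ℝ 1 P) - t • (y : Lp ℝ 1 P))
    have e : (x : Lp ℝ 1 P) + t • (y : Lp ℝ 1 P) - ((x : Lp ℝ 1 P) - t • (y : Lp ℝ 1 P)) =
        (2 * t) • (y : Lp ℝ 1 P) := by
      rw [two_mul, add_smul]; abel
    rw [e, norm_smul, hy1', Real.norm_eq_abs, abs_of_pos (by positivity)] at h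
    linarith
  have hmul : t * (1 / 2 - ρ) ≤ t * ∫ ω in S, |((y : Lp ℝ 1 P) : Ω → ℝ) ω| ∂P := by
    refine mul_le_mul_of_nonneg_left ?_ ht.le
    rw [hy1'] at hA
    linarith
  have hgoal : max (t / 2) (t - 1) - η ≤
      (‖(x : Lp ℝ 1 P) + t • (y : Lp ℝ 1 P)‖ + ‖(x : Lp ℝ 1 P) - t • (y : Lp ℝ 1 P)‖) / 2 - 1 := by
    rw [hx1] at hB
    rcases max_cases (t / 2) (t - 1) with ⟨h, _⟩ | ⟨h, _⟩ <;> rw [h] <;> linarith
  exact hgoal

end L1

end Crest.Agent.Helper3
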