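import Mathlib
import Crest.Agent.Helper4.Common

/-!
Helper3: the chain criterion `not_auc_of_chains` of `Helper4.Common` transported to an
`ℓ²`-sum `lp G 2` from chains living in single blocks `G k` (for S0166).
-/

set_option autoImplicit false

namespace Crest.Agent.Helper3

open Crest.Agent.Helper4

/-- If arbitrarily long chains (in the sense of `not_auc_of_chains`) exist inside single blocks
`G k` of an `ℓ²`-sum, with uniform constants, then no equivalent norm on `lp G 2` is AUC. -/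
theorem lp_two_not_auc {G : ℕ → Type} [∀ k, NormedAddCommGroup (G k)] [∀ k, NormedSpace ℝ (G k)]
    {κ C : ℝ} (hκ : 0 < κ) (hC : 0 < C)
    (h : ∀ K : ℕ, ∃ k : ℕ, ∃ D : ℕ → Set (G k), (D 0).Nonempty ∧
      (∀ j, ∀ x ∈ D j, 1 / C ≤ ‖x‖ ∧ ‖x‖ ≤ C) ∧
      ∀ j < K, ∀ x ∈ D j, ∀ F : Set (G k), Crest.Agent.Helper4.Cof F → ∀ δ : ℝ, 0 < δ →
        ∃ d ∈ F, κ ≤ ‖d‖ ∧ ∃ x' ∈ D (j + 1), ‖x + d - x'‖ ≤ δ)
    {N : lp G 2 → ℝ} (hN : Crest.Agent.Helper4.EquivNorm N) : ¬ Crest.Agent.Helper4.AUC N := by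
  refine not_auc_of_chains hκ hC (fun K => ?_) hN
  obtain ⟨k, D, hD0, hDb, hstep⟩ := h K
  have hnorm : ∀ v : G k, ‖lp.single 2 k v‖ = ‖v‖ :=
    fun v => lp.norm_single (by norm_num) k v
  refine ⟨fun j => lp.single 2 k '' D j, hD0.image _, ?_, ?_⟩
  · rintro j _ ⟨x, hx, rfl⟩
    rw [hnorm]
    exact hDb j x hx
  · rintro j hj _ ⟨x, hx, rfl⟩ F hF δ hδ
    obtain ⟨m, q, C', -, hq, -⟩ := hF.data
    have hF' : Cof {v : G k | (q.comp (lp.singleContinuousLinearMap ℝ G 2 k)) v = 0} :=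
      cof_ker _
    obtain ⟨d, hd, hκd, x', hx', hxd⟩ := hstep j hj x hx _ hF' δ hδ
    refine ⟨lp.single 2 k d, ?_, ?_, lp.single 2 k x', ⟨x', hx', rfl⟩, ?_⟩
    · rw [hq]
      exact hd
    · rw [hnorm]
      exact hκd
    · rw [← lp.single_add, ← lp.single_sub, hnorm]
      exact hxd

end Crest.Agent.Helper3
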