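import Mathlib
import Crest.Agent.Helper7.Area

/-!
Helper3: generic tools for S0327 (row 211).

* `muHE_image_affine`: `μHE[2]` scales by `c²` under `z ↦ a + c • f z`, `f` an isometry.
* `tri_subset_para`, `para_area_sum`: a triangle is covered by `n` parallelograms of total area
  `(1 + 1/n)` times the area of the triangle.
* `para_cover_of_tri_cover`: a cover by triangular cylinders gives one by parallelogram cylinders.
* `open_cover_of_tri_cover`: a cover by triangular cylinders gives one with relatively open bases.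
* `final_ratio`, the closing arithmetic.
-/

set_option autoImplicit false

open MeasureTheory
open scoped ENNReal NNReal Pointwise

namespace Crest.Agent.Helper3

open Crest.Agent.Helper7

/-- `μHE[2]` scales by `c²` under `z ↦ a + c • f z` when `f` is an isometry. -/
theorem muHE_image_affine (f : E3 → E3) (hf : Isometry f) (a : E3) (c : ℝ) (hc : 0 < c)
    (S : Set E3) :
    μHE[2] ((fun z => a + c • f z) '' S) = ENNReal.ofReal (c ^ 2) * μHE[2] S := by
  have h : (fun z => a + c • f z) '' S = (fun y => a + y) '' (c • (f '' S)) := by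
    ext x
    constructor
    · rintro ⟨z, hz, rfl⟩
      exact ⟨c • f z, Set.smul_mem_smul_set ⟨z, hz, rfl⟩, rfl⟩
    · rintro ⟨y, hy, rfl⟩
      obtain ⟨y', ⟨z, hz, rfl⟩, rfl⟩ := hy
      exact ⟨z, hz, rfl⟩
  rw [h, (isometry_add_left a).euclideanHausdorffMeasure_image,
    Measure.euclideanHausdorffMeasure_smul₀ 2 hc.ne', hf.euclideanHausdorffMeasure_image,
    ENNReal.smul_def, smul_eq_mul]
  congr 1
  rw [ENNReal.coe_pow, ENNReal.ofReal_pow hc.le]
  congr 1
  rw [← enorm_eq_nnnorm, Real.enorm_eq_ofReal hc.le]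

theorem gram_smul_smul (s t : ℝ) (a b : E3) : gram (s • a) (t • b) = s ^ 2 * t ^ 2 * gram a b := by
  unfold gram
  rw [norm_smul, norm_smul, real_inner_smul_left, real_inner_smul_right, Real.norm_eq_abs,
    Real.norm_eq_abs, mul_pow, mul_pow, sq_abs, sq_abs]
  ring

theorem gram_sub_right (a b : E3) : gram a (b - a) = gram a b := by
  unfold gram
  rw [norm_sub_sq_real, inner_sub_right, real_inner_self_eq_norm_sq, real_inner_comm a b]
  ring

theorem sum_fin_succ (n : ℕ) : ∑ j : Fin n, (((j : ℕ) : ℝ) + 1) = (n : ℝ) * (n + 1) / 2 := by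
  induction n with
  | zero => simp
  | succ n ih =>
    rw [Fin.sum_univ_castSucc]
    simp only [Fin.val_castSucc, Fin.val_last]
    rw [ih]
    push_cast
    ring

/-- corner of the `j`-th parallelogram slice of the triangle `p q r` -/
noncomputable def cJ (p q : E3) (n j : ℕ) : E3 := p + ((j : ℝ) / (n : ℝ)) • (q - p)
/-- first side of the slices -/
noncomputable def aJ (p q : E3) (n : ℕ) : E3 := (1 / (n : ℝ)) • (q - p)
/-- second side of the `j`-th slice -/
noncomputable def bJ (q r : E3) (n j : ℕ) : E3 := (((j : ℝ) + 1) / (n : ℝ)) • (r - q)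

theorem inner_cJ (p q u : E3) (n j : ℕ) (hp : inner ℝ p u = 0) (hq : inner ℝ q u = 0) :
    inner ℝ (cJ p q n j) u = 0 := by
  unfold cJ
  rw [inner_add_left, real_inner_smul_left, inner_sub_left, hp, hq]
  ring

theorem inner_aJ (p q u : E3) (n : ℕ) (hp : inner ℝ p u = 0) (hq : inner ℝ q u = 0) :
    inner ℝ (aJ p q n) u = 0 := by
  unfold aJ
  rw [real_inner_smul_left, inner_sub_left, hp, hq]
  ring

theorem inner_bJ (q r u : E3) (n j : ℕ) (hq : inner ℝ q u = 0) (hr : inner ℝ r u = 0) :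
    inner ℝ (bJ q r n j) u = 0 := by
  unfold bJ
  rw [real_inner_smul_left, inner_sub_left, hq, hr]
  ring

/-- A triangle is covered by `n` parallelogram slices. -/
theorem tri_subset_para (p q r : E3) (n : ℕ) (hn : 0 < n) :
    convexHull ℝ ({p, q, r} : Set E3) ⊆ ⋃ j : Fin n,
      {x : E3 | ∃ s ∈ Set.Icc (0 : ℝ) 1, ∃ t ∈ Set.Icc (0 : ℝ) 1,
        x = cJ p q n j + s • aJ p q n + t • bJ q r n j} := by
  intro x hx
  rw [convexHull_triple_eq] at hx
  obtain ⟨_, ⟨y, ⟨hy0, hy1, hy01⟩, rfl⟩, rfl⟩ := hx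
  have hnpos : (0 : ℝ) < n := by exact_mod_cast hn
  set S : ℝ := y 0 + y 1 with hS
  set T : ℝ := y 1 with hT
  have hS0 : 0 ≤ S := by positivity
  have hTS : T ≤ S := by rw [hS, hT]; linarith
  -- choose the slice
  have hj : ∃ j : ℕ, j < n ∧ (j : ℝ) ≤ S * n ∧ S * n ≤ (j : ℝ) + 1 := by
    by_cases h1 : S < 1
    · refine ⟨⌊S * n⌋₊, ?_, Nat.floor_le (by positivity), (Nat.lt_floor_add_one _).le⟩
      rw [Nat.floor_lt (by positivity)]
      calc S * n < 1 * n := by exact mul_lt_mul_of_pos_right h1 hnpos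
        _ = n := one_mul _
    · have hS1 : S = 1 := le_antisymm hy01 (not_lt.mp h1)
      refine ⟨n - 1, Nat.sub_lt hn one_pos, ?_, ?_⟩
      · rw [hS1, one_mul]; exact_mod_cast Nat.sub_le n 1
      · rw [hS1, one_mul]
        have : ((n - 1 : ℕ) : ℝ) = (n : ℝ) - 1 := by
          rw [Nat.cast_sub hn]; simp
        rw [this]; linarith
  obtain ⟨j, hjn, hj1, hj2⟩ := hj
  have hj1pos : (0 : ℝ) < (j : ℝ) + 1 := by positivity
  refine Set.mem_iUnion.mpr ⟨⟨j, hjn⟩, S * n - j, ⟨by linarith, by linarith⟩,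
    T * n / ((j : ℝ) + 1), ⟨by positivity, ?_⟩, ?_⟩
  · rw [div_le_one hj1pos]
    calc T * n ≤ S * n := mul_le_mul_of_nonneg_right hTS hnpos.le
      _ ≤ (j : ℝ) + 1 := hj2
  · have e1 : ((j : ℝ) / (n : ℝ)) • (q - p) + (S * n - j) • ((1 / (n : ℝ)) • (q - p)) =
        S • (q - p) := by
      rw [smul_smul, ← add_smul]
      congr 1
      field_simp
      ring
    have e2 : (T * n / ((j : ℝ) + 1)) • ((((j : ℝ) + 1) / (n : ℝ)) • (r - q)) = T • (r - q) := by
      rw [smul_smul]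
      congr 1
      field_simp
    show p + lin2 (q - p) (r - p) y = cJ p q n j + (S * n - j) • aJ p q n +
      (T * n / ((j : ℝ) + 1)) • bJ q r n j
    unfold cJ aJ bJ
    rw [add_assoc p, e1, e2, lin2_apply, hS, hT]
    module

/-- area of a slice -/
theorem para_area (p q r : E3) (n j : ℕ) :
    (μHE[2] {x : E3 | ∃ s ∈ Set.Icc (0 : ℝ) 1, ∃ t ∈ Set.Icc (0 : ℝ) 1,
        x = cJ p q n j + s • aJ p q n + t • bJ q r n j}).toReal =
      (1 / (n : ℝ)) * ((((j : ℝ) + 1) / (n : ℝ))) * Real.sqrt (gram (q - p) (r - p)) := by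
  rw [muHE_parallelogram, ENNReal.toReal_ofReal (Real.sqrt_nonneg _)]
  unfold aJ bJ
  have hrq : r - q = (r - p) - (q - p) := by abel
  rw [gram_smul_smul, hrq, gram_sub_right]
  have h1 : (0 : ℝ) ≤ 1 / (n : ℝ) := by positivity
  have h2 : (0 : ℝ) ≤ ((j : ℝ) + 1) / (n : ℝ) := by positivity
  rw [show (1 / (n : ℝ)) ^ 2 * ((((j : ℝ) + 1) / (n : ℝ))) ^ 2 * gram (q - p) (r - p) =
      ((1 / (n : ℝ)) * ((((j : ℝ) + 1) / (n : ℝ)))) ^ 2 * gram (q - p) (r - p) by ring,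
    Real.sqrt_mul (sq_nonneg _), Real.sqrt_sq (mul_nonneg h1 h2)]

/-- total area of the slices -/
theorem para_area_sum (p q r : E3) (n : ℕ) (hn : 0 < n) :
    ∑ j : Fin n, (μHE[2] {x : E3 | ∃ s ∈ Set.Icc (0 : ℝ) 1, ∃ t ∈ Set.Icc (0 : ℝ) 1,
        x = cJ p q n j + s • aJ p q n + t • bJ q r n j}).toReal =
      (1 + 1 / (n : ℝ)) * (μHE[2] (convexHull ℝ ({p, q, r} : Set E3))).toReal := by
  have hnpos : (0 : ℝ) < n := by exact_mod_cast hn
  simp_rw [para_area]
  rw [muHE_triangle, ENNReal.toReal_ofReal (by positivity), ← Finset.sum_mul]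
  have h : ∑ j : Fin n, (1 / (n : ℝ)) * ((((j : ℕ) : ℝ) + 1) / (n : ℝ)) =
      (1 + 1 / (n : ℝ)) / 2 := by
    simp_rw [← mul_div_assoc]
    rw [← Finset.sum_div, ← Finset.mul_sum, sum_fin_succ]
    field_simp
  rw [h]
  ring

/-- From a cover by triangular cylinders to a cover by parallelogram cylinders. -/
theorem para_cover_of_tri_cover (K : Set E3) {m : ℕ} (u p q r : Fin m → E3)
    (hu : ∀ i, ‖u i‖ = 1)
    (horth : ∀ i, inner ℝ (p i) (u i) = 0 ∧ inner ℝ (q i) (u i) = 0 ∧ inner ℝ (r i) (u i) = 0)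
    (hcov : K ⊆ ⋃ i, {x : E3 | ∃ b ∈ convexHull ℝ ({p i, q i, r i} : Set E3), ∃ t : ℝ,
      x = b + t • u i})
    (n : ℕ) (hn : 0 < n) :
    ∃ (k : ℕ) (u' c a b : Fin k → E3),
      (∀ i, ‖u' i‖ = 1) ∧
      (∀ i, inner ℝ (c i) (u' i) = 0 ∧ inner ℝ (a i) (u' i) = 0 ∧ inner ℝ (b i) (u' i) = 0) ∧
      K ⊆ ⋃ i, {x : E3 | ∃ s ∈ Set.Icc (0 : ℝ) 1, ∃ t ∈ Set.Icc (0 : ℝ) 1, ∃ τ : ℝ,
        x = c i + s • a i + t • b i + τ • u' i} ∧
      ∑ i, (μHE[2] {x : E3 | ∃ s ∈ Set.Icc (0 : ℝ) 1, ∃ t ∈ Set.Icc (0 : ℝ) 1,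
        x = c i + s • a i + t • b i}).toReal =
        (1 + 1 / (n : ℝ)) * ∑ i, (μHE[2] (convexHull ℝ ({p i, q i, r i} : Set E3))).toReal := by
  let e : Fin m × Fin n ≃ Fin (m * n) := finProdFinEquiv
  refine ⟨m * n, fun x => u (e.symm x).1,
    fun x => cJ (p (e.symm x).1) (q (e.symm x).1) n (e.symm x).2,
    fun x => aJ (p (e.symm x).1) (q (e.symm x).1) n,
    fun x => bJ (q (e.symm x).1) (r (e.symm x).1) n (e.symm x).2, ?_, ?_, ?_, ?_⟩
  · intro x
    exact hu _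
  · intro x
    exact ⟨inner_cJ _ _ _ _ _ (horth _).1 (horth _).2.1, inner_aJ _ _ _ _ (horth _).1 (horth _).2.1,
      inner_bJ _ _ _ _ _ (horth _).2.1 (horth _).2.2⟩
  · intro x hx
    obtain ⟨i, b, hb, t, rfl⟩ := Set.mem_iUnion.mp (hcov hx)
    obtain ⟨j, s, hs, t', ht', rfl⟩ := Set.mem_iUnion.mp (tri_subset_para (p i) (q i) (r i) n hn hb)
    refine Set.mem_iUnion.mpr ⟨e (i, j), s, hs, t', ht', t, ?_⟩
    simp only [Equiv.symm_apply_apply]
  · have h1 := Equiv.sum_comp e.symm (fun ij : Fin m × Fin n =>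
      (μHE[2] {x : E3 | ∃ s ∈ Set.Icc (0 : ℝ) 1, ∃ t ∈ Set.Icc (0 : ℝ) 1,
        x = cJ (p ij.1) (q ij.1) n ij.2 + s • aJ (p ij.1) (q ij.1) n +
          t • bJ (q ij.1) (r ij.1) n ij.2}).toReal)
    rw [h1, Fintype.sum_prod_type, Finset.mul_sum]
    refine Finset.sum_congr rfl fun i _ => ?_
    exact para_area_sum (p i) (q i) (r i) n hn

/-- From a cover by triangular cylinders to a cover by cylinders with bounded relatively open
bases, at an arbitrarily small cost in area. -/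
theorem open_cover_of_tri_cover (K : Set E3) {m : ℕ} (u p q r : Fin m → E3)
    (hu : ∀ i, ‖u i‖ = 1)
    (horth : ∀ i, inner ℝ (p i) (u i) = 0 ∧ inner ℝ (q i) (u i) = 0 ∧ inner ℝ (r i) (u i) = 0)
    (hcov : K ⊆ ⋃ i, {x : E3 | ∃ b ∈ convexHull ℝ ({p i, q i, r i} : Set E3), ∃ t : ℝ,
      x = b + t • u i})
    (ε : ℝ) (hε : 0 < ε) :
    ∃ B : Fin m → Set E3,
      (∀ i, Bornology.IsBounded (B i) ∧ ∃ O : Set E3, IsOpen O ∧
        B i = O ∩ {x | inner ℝ x (u i) = 0}) ∧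
      K ⊆ ⋃ i, {x : E3 | ∃ y ∈ B i, ∃ τ : ℝ, x = y + τ • u i} ∧
      ∑ i, (μHE[2] (B i)).toReal ≤
        ∑ i, (μHE[2] (convexHull ℝ ({p i, q i, r i} : Set E3))).toReal + m * ε := by
  have key : ∀ i, ∃ O : Set E3, IsOpen O ∧ Bornology.IsBounded (O ∩ {x | inner ℝ x (u i) = 0}) ∧
      convexHull ℝ ({p i, q i, r i} : Set E3) ⊆ O ∩ {x | inner ℝ x (u i) = 0} ∧
      (μHE[2] (O ∩ {x | inner ℝ x (u i) = 0})).toReal ≤
        (μHE[2] (convexHull ℝ ({p i, q i, r i} : Set E3))).toReal + ε := by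
    intro i
    refine exists_open_enlargement (u i) (hu i) _ ?_ ?_ ε hε
    · exact Set.Finite.isCompact_convexHull ℝ (Set.toFinite _)
    · intro x hx
      have hconv : Convex ℝ {x : E3 | inner ℝ x (u i) = 0} :=
        convex_hyperplane (𝕜 := ℝ) (f := fun x : E3 => inner ℝ x (u i))
          ⟨fun x y => inner_add_left x y (u i),
            fun c x => by rw [real_inner_smul_left, smul_eq_mul]⟩ 0
      have hsub : ({p i, q i, r i} : Set E3) ⊆ {x : E3 | inner ℝ x (u i) = 0} := by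
        rintro y (rfl | rfl | rfl)
        exacts [(horth i).1, (horth i).2.1, (horth i).2.2]
      exact convexHull_min hsub hconv hx
  choose O hO1 hO2 hO3 hO4 using key
  refine ⟨fun i => O i ∩ {x | inner ℝ x (u i) = 0}, fun i => ⟨hO2 i, O i, hO1 i, rfl⟩, ?_, ?_⟩
  · intro x hx
    obtain ⟨i, b, hb, t, rfl⟩ := Set.mem_iUnion.mp (hcov hx)
    exact Set.mem_iUnion.mpr ⟨i, b, hO3 i hb, t, rfl⟩
  · calc ∑ i, (μHE[2] (O i ∩ {x | inner ℝ x (u i) = 0})).toReal
        ≤ ∑ i, ((μHE[2] (convexHull ℝ ({p i, q i, r i} : Set E3))).toReal + ε) :=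
          Finset.sum_le_sum fun i _ => hO4 i
      _ = ∑ i, (μHE[2] (convexHull ℝ ({p i, q i, r i} : Set E3))).toReal + m * ε := by
          rw [Finset.sum_add_distrib]
          simp

/-- closing arithmetic for the ratio sums -/
theorem final_ratio {k : ℕ} (area M : Fin k → ℝ) (mstar θ : ℝ) (hm : 0 < mstar) (hθ : θ < 1 / 2)
    (harea : ∀ i, 0 ≤ area i) (hM : ∀ i, mstar ≤ M i) (hsum : ∑ i, area i ≤ θ * mstar) :
    ∑ i, area i / M i < 1 / 2 := by
  have h1 : ∀ i, area i / M i ≤ area i / mstar :=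
    fun i => div_le_div_of_nonneg_left (harea i) hm (hM i)
  calc ∑ i, area i / M i ≤ ∑ i, area i / mstar := Finset.sum_le_sum fun i _ => h1 i
    _ = (∑ i, area i) / mstar := (Finset.sum_div _ _ _).symm
    _ ≤ θ := by rw [div_le_iff₀ hm]; exact hsum
    _ < 1 / 2 := hθ

end Crest.Agent.Helper3
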