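import Mathlib
import Crest.Agent.Helper7.Area
import Crest.Agent.Helper3.TetraGeneric

/-!
Helper3: transport from the standard regular tetrahedron `K0` (vertices `(±1,0,0)`,
`(0,±1,√2)`) to an arbitrary regular tetrahedron, for S0327 (row 211).
-/

set_option autoImplicit false

open MeasureTheory
open scoped ENNReal

namespace Crest.Agent.Helper3

open Crest.Agent.Helper7

/-- The similarity `z ↦ a + c • ι z` commutes with convex hulls. -/
theorem image_convexHull_affine (ι : E3 ≃ₗᵢ[ℝ] E3) (a : E3) (c : ℝ) (s : Set E3) :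
    (fun z => a + c • ι z) '' convexHull ℝ s = convexHull ℝ ((fun z => a + c • ι z) '' s) := by
  let Ψ : E3 →ᵃ[ℝ] E3 := ⟨fun z => a + c • ι z, c • ι.toLinearEquiv.toLinearMap, fun p v => by
    simp only [vadd_eq_add, map_add, smul_add, LinearMap.smul_apply, LinearEquiv.coe_coe,
      LinearIsometryEquiv.coe_toLinearEquiv]
    abel⟩
  exact Ψ.image_convexHull s

/-- The orthogonal projection along `v` of `m₀ + c • ι x`. -/
theorem proj_affine (ι : E3 ≃ₗᵢ[ℝ] E3) (m₀ : E3) (c : ℝ) (v x : E3) :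
    (m₀ + c • ι x) - inner ℝ (m₀ + c • ι x) v • v =
      (m₀ - inner ℝ m₀ v • v) + c • ι (x - inner ℝ x (ι.symm v) • ι.symm v) := by
  have h1 : inner ℝ (ι x) v = inner ℝ x (ι.symm v) := by
    conv_lhs => rw [← ι.apply_symm_apply v]
    exact ι.inner_map_map x (ι.symm v)
  rw [inner_add_left, real_inner_smul_left, h1, map_sub, map_smul, ι.apply_symm_apply]
  module

/-- Lower bound for projection areas, transported along the similarity. -/
theorem minProj_transport (ι : E3 ≃ₗᵢ[ℝ] E3) (m₀ : E3) (c : ℝ) (hc : 0 < c) (K0 : Set E3)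
    (hK0 : Bornology.IsBounded K0) (μ : ℝ)
    (hmin : ∀ v : E3, ‖v‖ = 1 →
      ENNReal.ofReal μ ≤ μHE[2] ((fun y => y - inner ℝ y v • v) '' K0))
    (v : E3) (hv : ‖v‖ = 1) :
    c ^ 2 * μ ≤ (μHE[2] ((fun y => y - inner ℝ y v • v) ''
      ((fun x => m₀ + c • ι x) '' K0))).toReal := by
  have hv0 : ‖ι.symm v‖ = 1 := by rw [LinearIsometryEquiv.norm_map]; exact hv
  have himg : (fun y => y - inner ℝ y v • v) '' ((fun x => m₀ + c • ι x) '' K0) =
      (fun z => (m₀ - inner ℝ m₀ v • v) + c • ι z) ''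
        ((fun y => y - inner ℝ y (ι.symm v) • ι.symm v) '' K0) := by
    rw [Set.image_image, Set.image_image]
    refine Set.image_congr' fun x => ?_
    exact proj_affine ι m₀ c v x
  rw [himg, muHE_image_affine _ ι.isometry _ c hc]
  have hfin : μHE[2] ((fun y => y - inner ℝ y (ι.symm v) • ι.symm v) '' K0) < ⊤ := by
    refine muHE_plane_bounded_lt_top (ι.symm v) hv0 _ ?_ ?_
    · obtain ⟨R, hR⟩ := hK0.exists_norm_le
      refine isBounded_iff_forall_norm_le.mpr ⟨2 * R, ?_⟩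
      rintro _ ⟨x, hx, rfl⟩
      have h1 := hR x hx
      have h2 : ‖inner ℝ x (ι.symm v) • ι.symm v‖ ≤ ‖x‖ := by
        rw [norm_smul, hv0, mul_one]
        calc ‖inner ℝ x (ι.symm v)‖ ≤ ‖x‖ * ‖ι.symm v‖ := norm_inner_le_norm _ _
          _ = ‖x‖ := by rw [hv0, mul_one]
      calc ‖x - inner ℝ x (ι.symm v) • ι.symm v‖
          ≤ ‖x‖ + ‖inner ℝ x (ι.symm v) • ι.symm v‖ := norm_sub_le _ _
        _ ≤ 2 * R := by linarith
    · rintro _ ⟨x, hx, rfl⟩
      exact inner_proj_self _ _ hv0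
  have h3 := hmin (ι.symm v) hv0
  rw [ENNReal.toReal_mul, ENNReal.toReal_ofReal (by positivity)]
  have h4 : μ ≤ (μHE[2] ((fun y => y - inner ℝ y (ι.symm v) • ι.symm v) '' K0)).toReal :=
    (ENNReal.ofReal_le_iff_le_toReal hfin.ne).mp h3
  exact mul_le_mul_of_nonneg_left h4 (by positivity)

/-- A cover by triangular cylinders, transported along the similarity. -/
theorem tri_cover_transport (ι : E3 ≃ₗᵢ[ℝ] E3) (m₀ : E3) (c : ℝ) (hc : 0 < c) (K0 : Set E3)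
    {m : ℕ} (u p q r : Fin m → E3) (hu : ∀ i, ‖u i‖ = 1)
    (horth : ∀ i, inner ℝ (p i) (u i) = 0 ∧ inner ℝ (q i) (u i) = 0 ∧ inner ℝ (r i) (u i) = 0)
    (hcov : K0 ⊆ ⋃ i, {x : E3 | ∃ b ∈ convexHull ℝ ({p i, q i, r i} : Set E3), ∃ t : ℝ,
      x = b + t • u i}) :
    ∃ (u' p' q' r' : Fin m → E3), (∀ i, ‖u' i‖ = 1) ∧
      (∀ i, inner ℝ (p' i) (u' i) = 0 ∧ inner ℝ (q' i) (u' i) = 0 ∧
        inner ℝ (r' i) (u' i) = 0) ∧
      (fun x => m₀ + c • ι x) '' K0 ⊆ ⋃ i, {x : E3 | ∃ b ∈ convexHull ℝ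
        ({p' i, q' i, r' i} : Set E3), ∃ t : ℝ, x = b + t • u' i} ∧
      ∀ i, (μHE[2] (convexHull ℝ ({p' i, q' i, r' i} : Set E3))).toReal =
        c ^ 2 * (μHE[2] (convexHull ℝ ({p i, q i, r i} : Set E3))).toReal := by
  let a : Fin m → E3 := fun i => m₀ - inner ℝ m₀ (ι (u i)) • ι (u i)
  have hu' : ∀ i, ‖ι (u i)‖ = 1 := fun i => by rw [LinearIsometryEquiv.norm_map]; exact hu i
  have ha : ∀ i, inner ℝ (a i) (ι (u i)) = 0 := fun i => inner_proj_self _ _ (hu' i)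
  have horth' : ∀ i (z : E3), inner ℝ z (u i) = 0 →
      inner ℝ (a i + c • ι z) (ι (u i)) = 0 := by
    intro i z hz
    rw [inner_add_left, ha i, real_inner_smul_left, ι.inner_map_map, hz]
    ring
  have himg : ∀ i, (fun z => a i + c • ι z) '' convexHull ℝ ({p i, q i, r i} : Set E3) =
      convexHull ℝ ({a i + c • ι (p i), a i + c • ι (q i), a i + c • ι (r i)} : Set E3) := by
    intro i
    rw [image_convexHull_affine, Set.image_insert_eq, Set.image_insert_eq, Set.image_singleton]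
  refine ⟨fun i => ι (u i), fun i => a i + c • ι (p i), fun i => a i + c • ι (q i),
    fun i => a i + c • ι (r i), hu',
    fun i => ⟨horth' i _ (horth i).1, horth' i _ (horth i).2.1, horth' i _ (horth i).2.2⟩,
    ?_, ?_⟩
  · rintro _ ⟨x, hx, rfl⟩
    obtain ⟨i, b, hb, t, rfl⟩ := Set.mem_iUnion.mp (hcov hx)
    refine Set.mem_iUnion.mpr ⟨i, a i + c • ι b, ?_, inner ℝ m₀ (ι (u i)) + c * t, ?_⟩
    · rw [← himg i]
      exact ⟨b, hb, rfl⟩
    · show m₀ + c • ι (b + t • u i) =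
        (m₀ - inner ℝ m₀ (ι (u i)) • ι (u i)) + c • ι b +
          (inner ℝ m₀ (ι (u i)) + c * t) • ι (u i)
      rw [map_add, map_smul]
      module
  · intro i
    show (μHE[2] (convexHull ℝ
      ({a i + c • ι (p i), a i + c • ι (q i), a i + c • ι (r i)} : Set E3))).toReal = _
    rw [← himg i, muHE_image_affine _ ι.isometry _ c hc, ENNReal.toReal_mul,
      ENNReal.toReal_ofReal (by positivity)]

/-- The orthonormal frame adapted to a regular tetrahedron. -/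
theorem exists_frame (w : Fin 4 → E3) (ℓ : ℝ) (hℓ : 0 < ℓ)
    (hw : ∀ i j, i ≠ j → dist (w i) (w j) = ℓ) :
    ∃ (ι : E3 ≃ₗᵢ[ℝ] E3) (m₀ : E3),
      m₀ + (ℓ / 2) • ι !₂[1, 0, 0] = w 0 ∧ m₀ + (ℓ / 2) • ι !₂[-1, 0, 0] = w 1 ∧
      m₀ + (ℓ / 2) • ι !₂[0, 1, Real.sqrt 2] = w 2 ∧
      m₀ + (ℓ / 2) • ι !₂[0, -1, Real.sqrt 2] = w 3 := by
  have hℓ0 : ℓ ≠ 0 := hℓ.ne'
  have hd : ∀ i j, i ≠ j →
      (w i 0 - w j 0) ^ 2 + (w i 1 - w j 1) ^ 2 + (w i 2 - w j 2) ^ 2 = ℓ ^ 2 := by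
    intro i j hij
    have h := hw i j hij
    rw [dist_eq_norm] at h
    have h2 : ‖w i - w j‖ ^ 2 = ℓ ^ 2 := by rw [h]
    rw [norm_sq_E3] at h2
    simpa using h2
  have h01 := hd 0 1 (by decide)
  have h02 := hd 0 2 (by decide)
  have h03 := hd 0 3 (by decide)
  have h12 := hd 1 2 (by decide)
  have h13 := hd 1 3 (by decide)
  have h23 := hd 2 3 (by decide)
  have iaa : inner ℝ (w 0 - w 1) (w 0 - w 1) = ℓ ^ 2 := by
    rw [inner_E3]
    simp only [PiLp.sub_apply]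
    linear_combination h01
  have ibb : inner ℝ (w 2 - w 3) (w 2 - w 3) = ℓ ^ 2 := by
    rw [inner_E3]
    simp only [PiLp.sub_apply]
    linear_combination h23
  have idd : inner ℝ (w 2 + w 3 - w 0 - w 1) (w 2 + w 3 - w 0 - w 1) = 2 * ℓ ^ 2 := by
    rw [inner_E3]
    simp only [PiLp.sub_apply, PiLp.add_apply]
    linear_combination h02 + h13 + h12 + h03 - h23 - h01
  have iab : inner ℝ (w 0 - w 1) (w 2 - w 3) = 0 := by
    rw [inner_E3]
    simp only [PiLp.sub_apply]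
    linear_combination (1 / 2) * h03 + (1 / 2) * h12 - (1 / 2) * h02 - (1 / 2) * h13
  have iad : inner ℝ (w 0 - w 1) (w 2 + w 3 - w 0 - w 1) = 0 := by
    rw [inner_E3]
    simp only [PiLp.sub_apply, PiLp.add_apply]
    linear_combination (1 / 2) * h12 + (1 / 2) * h13 - (1 / 2) * h02 - (1 / 2) * h03
  have ibd : inner ℝ (w 2 - w 3) (w 2 + w 3 - w 0 - w 1) = 0 := by
    rw [inner_E3]
    simp only [PiLp.sub_apply, PiLp.add_apply]
    linear_combination (-(1 / 2)) * h03 - (1 / 2) * h13 + (1 / 2) * h02 + (1 / 2) * h12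
  have hs : Real.sqrt 2 * Real.sqrt 2 = 2 := Real.mul_self_sqrt (by norm_num)
  obtain ⟨f0, hf0⟩ : ∃ f0 : E3, f0 = (1 / ℓ) • (w 0 - w 1) := ⟨_, rfl⟩
  obtain ⟨f1, hf1⟩ : ∃ f1 : E3, f1 = (1 / ℓ) • (w 2 - w 3) := ⟨_, rfl⟩
  obtain ⟨f2, hf2⟩ : ∃ f2 : E3, f2 = (Real.sqrt 2 / (2 * ℓ)) • (w 2 + w 3 - w 0 - w 1) :=
    ⟨_, rfl⟩
  have g00 : inner ℝ f0 f0 = 1 := by
    rw [hf0, real_inner_smul_left, real_inner_smul_right, iaa]
    field_simp
  have g11 : inner ℝ f1 f1 = 1 := by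
    rw [hf1, real_inner_smul_left, real_inner_smul_right, ibb]
    field_simp
  have g22 : inner ℝ f2 f2 = 1 := by
    rw [hf2, real_inner_smul_left, real_inner_smul_right, idd]
    have hs2 : Real.sqrt 2 ^ 2 = 2 := Real.sq_sqrt (by norm_num)
    field_simp
    linarith [hs2]
  have g01 : inner ℝ f0 f1 = 0 := by
    rw [hf0, hf1, real_inner_smul_left, real_inner_smul_right, iab]
    ring
  have g02 : inner ℝ f0 f2 = 0 := by
    rw [hf0, hf2, real_inner_smul_left, real_inner_smul_right, iad]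
    ring
  have g12 : inner ℝ f1 f2 = 0 := by
    rw [hf1, hf2, real_inner_smul_left, real_inner_smul_right, ibd]
    ring
  have g10 : inner ℝ f1 f0 = 0 := by rw [real_inner_comm]; exact g01
  have g20 : inner ℝ f2 f0 = 0 := by rw [real_inner_comm]; exact g02
  have g21 : inner ℝ f2 f1 = 0 := by rw [real_inner_comm]; exact g12
  have n0 : ‖f0‖ = 1 := by rw [norm_eq_sqrt_real_inner, g00, Real.sqrt_one]
  have n1 : ‖f1‖ = 1 := by rw [norm_eq_sqrt_real_inner, g11, Real.sqrt_one]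
  have n2 : ‖f2‖ = 1 := by rw [norm_eq_sqrt_real_inner, g22, Real.sqrt_one]
  have hon : Orthonormal ℝ ![f0, f1, f2] := by
    rw [orthonormal_iff_ite]
    intro i j
    fin_cases i <;> fin_cases j <;>
      simp [g01, g02, g12, g10, g20, g21, n0, n1, n2]
  let B : OrthonormalBasis (Fin 3) ℝ E3 :=
    (basisOfOrthonormalOfCardEqFinrank hon (by simp)).toOrthonormalBasis (by
      rw [coe_basisOfOrthonormalOfCardEqFinrank]; exact hon)
  have hB : (B : Fin 3 → E3) = ![f0, f1, f2] := by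
    simp [B]
  have hι : ∀ x : E3, B.repr.symm x = x 0 • f0 + x 1 • f1 + x 2 • f2 := by
    intro x
    rw [← B.sum_repr_symm, Fin.sum_univ_three, hB]
    rfl
  have hf2' : Real.sqrt 2 • f2 = (1 / ℓ) • (w 2 + w 3 - w 0 - w 1) := by
    rw [hf2, smul_smul]
    congr 1
    rw [← mul_div_assoc, hs]
    field_simp
  refine ⟨B.repr.symm, (1 / 2 : ℝ) • (w 0 + w 1), ?_, ?_, ?_, ?_⟩
  · rw [hι]
    have e : ((!₂[1, 0, 0] : E3) 0 = 1) ∧ ((!₂[1, 0, 0] : E3) 1 = 0) ∧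
        ((!₂[1, 0, 0] : E3) 2 = 0) := ⟨rfl, rfl, rfl⟩
    rw [e.1, e.2.1, e.2.2, hf0]
    ext k
    simp only [PiLp.add_apply, PiLp.smul_apply, PiLp.sub_apply, smul_eq_mul]
    field_simp
    ring
  · rw [hι]
    have e : ((!₂[-1, 0, 0] : E3) 0 = -1) ∧ ((!₂[-1, 0, 0] : E3) 1 = 0) ∧
        ((!₂[-1, 0, 0] : E3) 2 = 0) := ⟨rfl, rfl, rfl⟩
    rw [e.1, e.2.1, e.2.2, hf0]
    ext k
    simp only [PiLp.add_apply, PiLp.smul_apply, PiLp.sub_apply, smul_eq_mul]
    field_simp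
    ring
  · rw [hι]
    have e : ((!₂[0, 1, Real.sqrt 2] : E3) 0 = 0) ∧ ((!₂[0, 1, Real.sqrt 2] : E3) 1 = 1) ∧
        ((!₂[0, 1, Real.sqrt 2] : E3) 2 = Real.sqrt 2) := ⟨rfl, rfl, rfl⟩
    rw [e.1, e.2.1, e.2.2, hf2', hf1]
    ext k
    simp only [PiLp.add_apply, PiLp.smul_apply, PiLp.sub_apply, smul_eq_mul]
    field_simp
    ring
  · rw [hι]
    have e : ((!₂[0, -1, Real.sqrt 2] : E3) 0 = 0) ∧ ((!₂[0, -1, Real.sqrt 2] : E3) 1 = -1) ∧
        ((!₂[0, -1, Real.sqrt 2] : E3) 2 = Real.sqrt 2) := ⟨rfl, rfl, rfl⟩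
    rw [e.1, e.2.1, e.2.2, hf2', hf1]
    ext k
    simp only [PiLp.add_apply, PiLp.smul_apply, PiLp.sub_apply, smul_eq_mul]
    field_simp
    ring

end Crest.Agent.Helper3
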