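import Mathlib
import Crest.Agent.Helper7.Area
import Crest.Agent.Helper3.TetraGeneric
import Crest.Agent.Helper3.TetraFrame

/-!
Helper3: the core reduction for S0327 (row 211).  From
* the lower bound `√2` for all projection areas of the standard regular tetrahedron `K0`, and
* a cover of `K0` by finitely many triangular cylinders of total base area `≤ √2 (1/2 - μ₀)`,
both conclusions of S0327 follow for every regular tetrahedron.
-/

set_option autoImplicit false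

open MeasureTheory
open scoped ENNReal

namespace Crest.Agent.Helper3

open Crest.Agent.Helper7

/-- the standard regular tetrahedron, written out -/
noncomputable abbrev K0std : Set E3 :=
  convexHull ℝ ({!₂[1, 0, 0], !₂[-1, 0, 0], !₂[0, 1, Real.sqrt 2], !₂[0, -1, Real.sqrt 2]} : Set E3)

theorem S0327_core (μ₀ : ℝ) (hμ₀ : 0 < μ₀)
    (hmin : ∀ v : E3, ‖v‖ = 1 →
      ENNReal.ofReal (Real.sqrt 2) ≤ μHE[2] ((fun y => y - inner ℝ y v • v) '' K0std))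
    (hcov : ∃ (m : ℕ) (u p q r : Fin m → E3), (∀ i, ‖u i‖ = 1) ∧
      (∀ i, inner ℝ (p i) (u i) = 0 ∧ inner ℝ (q i) (u i) = 0 ∧ inner ℝ (r i) (u i) = 0) ∧
      K0std ⊆ ⋃ i, {x : E3 | ∃ b ∈ convexHull ℝ ({p i, q i, r i} : Set E3), ∃ t : ℝ,
        x = b + t • u i} ∧
      ∑ i, (μHE[2] (convexHull ℝ ({p i, q i, r i} : Set E3))).toReal ≤
        Real.sqrt 2 * (1 / 2 - μ₀))
    (w : Fin 4 → EuclideanSpace ℝ (Fin 3)) (ℓ : ℝ) (hℓ : 0 < ℓ)
    (hw : ∀ i j, i ≠ j → dist (w i) (w j) = ℓ) :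
    (∃ (k : ℕ) (u c a b : Fin k → EuclideanSpace ℝ (Fin 3)),
      (∀ i, ‖u i‖ = 1) ∧
      (∀ i, inner ℝ (c i) (u i) = 0 ∧ inner ℝ (a i) (u i) = 0 ∧ inner ℝ (b i) (u i) = 0) ∧
      convexHull ℝ (Set.range w) ⊆ ⋃ i, {x : EuclideanSpace ℝ (Fin 3) |
        ∃ s ∈ Set.Icc (0 : ℝ) 1, ∃ t ∈ Set.Icc (0 : ℝ) 1, ∃ τ : ℝ, x = c i + s • a i + t • b i + τ • u i} ∧
      (∃ δ : ℝ, 0 < δ ∧ ∀ v : EuclideanSpace ℝ (Fin 3), ‖v‖ = 1 →
        (∑ i, (μHE[2] {x : EuclideanSpace ℝ (Fin 3) |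
            ∃ s ∈ Set.Icc (0 : ℝ) 1, ∃ t ∈ Set.Icc (0 : ℝ) 1, x = c i + s • a i + t • b i}).toReal) + δ ≤
          (μHE[2] ((fun y => y - inner ℝ y v • v) '' convexHull ℝ (Set.range w))).toReal / 2) ∧
      ∑ i, (μHE[2] {x : EuclideanSpace ℝ (Fin 3) |
            ∃ s ∈ Set.Icc (0 : ℝ) 1, ∃ t ∈ Set.Icc (0 : ℝ) 1, x = c i + s • a i + t • b i}).toReal /
          (μHE[2] ((fun y => y - inner ℝ y (u i) • u i) '' convexHull ℝ (Set.range w))).toReal < 1 / 2) ∧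
    (∃ (k : ℕ) (u : Fin k → EuclideanSpace ℝ (Fin 3)) (B : Fin k → Set (EuclideanSpace ℝ (Fin 3))),
      (∀ i, ‖u i‖ = 1) ∧
      (∀ i, Bornology.IsBounded (B i) ∧ ∃ O : Set (EuclideanSpace ℝ (Fin 3)), IsOpen O ∧
        B i = O ∩ {x | inner ℝ x (u i) = 0}) ∧
      convexHull ℝ (Set.range w) ⊆
        ⋃ i, {x : EuclideanSpace ℝ (Fin 3) | ∃ y ∈ B i, ∃ τ : ℝ, x = y + τ • u i} ∧
      (∃ δ : ℝ, 0 < δ ∧ ∀ v : EuclideanSpace ℝ (Fin 3), ‖v‖ = 1 →
        (∑ i, (μHE[2] (B i)).toReal) + δ ≤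
          (μHE[2] ((fun y => y - inner ℝ y v • v) '' convexHull ℝ (Set.range w))).toReal / 2) ∧
      ∑ i, (μHE[2] (B i)).toReal /
          (μHE[2] ((fun y => y - inner ℝ y (u i) • u i) '' convexHull ℝ (Set.range w))).toReal < 1 / 2) := by
  obtain ⟨ι, m₀, e0, e1, e2, e3⟩ := exists_frame w ℓ hℓ hw
  obtain ⟨c, hc_def⟩ : ∃ c : ℝ, c = ℓ / 2 := ⟨_, rfl⟩
  rw [← hc_def] at e0 e1 e2 e3
  have hc : 0 < c := by rw [hc_def]; positivity
  have hrange : Set.range w = {w 0, w 1, w 2, w 3} := by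
    ext x
    simp only [Set.mem_range, Set.mem_insert_iff, Set.mem_singleton_iff]
    constructor
    · rintro ⟨i, rfl⟩
      fin_cases i <;> simp
    · rintro (rfl | rfl | rfl | rfl)
      exacts [⟨0, rfl⟩, ⟨1, rfl⟩, ⟨2, rfl⟩, ⟨3, rfl⟩]
  have hK : convexHull ℝ (Set.range w) = (fun x => m₀ + c • ι x) '' K0std := by
    rw [image_convexHull_affine, Set.image_insert_eq, Set.image_insert_eq, Set.image_insert_eq,
      Set.image_singleton, hrange]
    simp only [e0, e1, e2, e3]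
  have hs2pos : 0 < Real.sqrt 2 := Real.sqrt_pos.mpr (by norm_num)
  obtain ⟨mstar, hmstar⟩ : ∃ mstar : ℝ, mstar = c ^ 2 * Real.sqrt 2 := ⟨_, rfl⟩
  have hmstar_pos : 0 < mstar := by rw [hmstar]; positivity
  have hK0b : Bornology.IsBounded K0std :=
    (isBounded_convexHull).mpr (Set.toFinite _).isBounded
  have hM : ∀ v : E3, ‖v‖ = 1 → mstar ≤
      (μHE[2] ((fun y => y - inner ℝ y v • v) '' convexHull ℝ (Set.range w))).toReal := by
    intro v hv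
    rw [hK, hmstar]
    exact minProj_transport ι m₀ c hc K0std hK0b (Real.sqrt 2) hmin v hv
  obtain ⟨m, u, p, q, r, hu, horth, hcov0, hsum0⟩ := hcov
  obtain ⟨u', p', q', r', hu', horth', hcov', harea'⟩ :=
    tri_cover_transport ι m₀ c hc K0std u p q r hu horth hcov0
  rw [← hK] at hcov'
  have hsum' : ∑ i, (μHE[2] (convexHull ℝ ({p' i, q' i, r' i} : Set E3))).toReal ≤
      mstar * (1 / 2 - μ₀) := by
    simp_rw [harea']
    rw [← Finset.mul_sum]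
    calc c ^ 2 * ∑ i, (μHE[2] (convexHull ℝ ({p i, q i, r i} : Set E3))).toReal
        ≤ c ^ 2 * (Real.sqrt 2 * (1 / 2 - μ₀)) :=
          mul_le_mul_of_nonneg_left hsum0 (by positivity)
      _ = mstar * (1 / 2 - μ₀) := by rw [hmstar]; ring
  have hS0 : 0 ≤ ∑ i, (μHE[2] (convexHull ℝ ({p' i, q' i, r' i} : Set E3))).toReal :=
    Finset.sum_nonneg fun i _ => ENNReal.toReal_nonneg
  have hδ : 0 < μ₀ / 2 * mstar := by positivity
  constructor
  · -- parallelogram bases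
    obtain ⟨n, hn⟩ := exists_nat_gt (1 / μ₀)
    have hnpos : (0 : ℝ) < n := lt_trans (by positivity) hn
    have hn0 : 0 < n := by exact_mod_cast hnpos
    obtain ⟨k, u'', cc, aa, bb, hu'', horth'', hcov'', hsum''⟩ :=
      para_cover_of_tri_cover _ u' p' q' r' hu' horth' hcov' n hn0
    have h1n : 1 / (n : ℝ) < μ₀ := by
      rw [div_lt_iff₀ hnpos]
      have := (div_lt_iff₀ hμ₀).mp hn
      linarith
    have htot : ∑ i, (μHE[2] {x : E3 | ∃ s ∈ Set.Icc (0 : ℝ) 1, ∃ t ∈ Set.Icc (0 : ℝ) 1,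
        x = cc i + s • aa i + t • bb i}).toReal ≤ (1 / 2 - μ₀ / 2) * mstar := by
      rw [hsum'']
      have hA : (1 + 1 / (n : ℝ)) *
            ∑ i, (μHE[2] (convexHull ℝ ({p' i, q' i, r' i} : Set E3))).toReal ≤
          (1 + μ₀) * ∑ i, (μHE[2] (convexHull ℝ ({p' i, q' i, r' i} : Set E3))).toReal :=
        mul_le_mul_of_nonneg_right (by linarith) hS0
      have hB : (1 + μ₀) * ∑ i, (μHE[2] (convexHull ℝ ({p' i, q' i, r' i} : Set E3))).toReal ≤
          (1 + μ₀) * (mstar * (1 / 2 - μ₀)) :=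
        mul_le_mul_of_nonneg_left hsum' (by linarith)
      nlinarith [mul_pos hmstar_pos (mul_pos hμ₀ hμ₀)]
    refine ⟨k, u'', cc, aa, bb, hu'', horth'', hcov'', ⟨μ₀ / 2 * mstar, hδ, ?_⟩, ?_⟩
    · intro v hv
      have := hM v hv
      linarith
    · exact final_ratio _ _ mstar (1 / 2 - μ₀ / 2) hmstar_pos (by linarith)
        (fun i => ENNReal.toReal_nonneg) (fun i => hM (u'' i) (hu'' i)) htot
  · -- relatively open bases
    obtain ⟨ε, hε_def⟩ : ∃ ε : ℝ, ε = mstar * μ₀ / 2 / ((m : ℝ) + 1) := ⟨_, rfl⟩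
    have hm1 : (0 : ℝ) < (m : ℝ) + 1 := by positivity
    have hε : 0 < ε := by rw [hε_def]; positivity
    have hmε : (m : ℝ) * ε ≤ mstar * μ₀ / 2 := by
      have h1 : ((m : ℝ) + 1) * ε = mstar * μ₀ / 2 := by
        rw [hε_def]; field_simp
      nlinarith
    obtain ⟨B, hB1, hB2, hB3⟩ := open_cover_of_tri_cover _ u' p' q' r' hu' horth' hcov' ε hε
    have htot : ∑ i, (μHE[2] (B i)).toReal ≤ (1 / 2 - μ₀ / 2) * mstar := by
      nlinarith
    refine ⟨m, u', B, hu', hB1, hB2, ⟨μ₀ / 2 * mstar, hδ, ?_⟩, ?_⟩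
    · intro v hv
      have := hM v hv
      linarith
    · exact final_ratio _ _ mstar (1 / 2 - μ₀ / 2) hmstar_pos (by linarith)
        (fun i => ENNReal.toReal_nonneg) (fun i => hM (u' i) (hu' i)) htot

end Crest.Agent.Helper3
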